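import Mathlib

set_option autoImplicit false

namespace Crest.Agent.helper6

/-- Lattice covering lemma: unit squares placed at the lattice generated by `(1,g)` and `(b,1)`
with `0 ≤ b*g < 1` cover the plane. -/
theorem lattice_cover (b g X Y : ℝ) (h0 : 0 ≤ b * g) (h1 : b * g < 1) :
    ∃ m n : ℤ, 0 ≤ X - m - n * b ∧ X - m - n * b ≤ 1 ∧ 0 ≤ Y - m * g - n ∧ Y - m * g - n ≤ 1 := by
  -- φ n = Y - g * ⌊X - n b⌋ - n
  set φ : ℤ → ℝ := fun n => Y - (⌊X - n * b⌋ : ℝ) * g - n with hφ
  -- bounds: g * ⌊X - n b⌋ is within |g| of g * (X - n b)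
  have hfl : ∀ n : ℤ, |(⌊X - n * b⌋ : ℝ) * g - (X - n * b) * g| ≤ |g| := by
    intro n
    rw [← sub_mul, abs_mul]
    have h1 : |(⌊X - n * b⌋ : ℝ) - (X - n * b)| ≤ 1 := by
      rw [abs_le]
      constructor
      · have := Int.lt_floor_add_one (X - n * b); linarith
      · have := Int.floor_le (X - n * b); linarith
    calc _ ≤ 1 * |g| := by gcongr
      _ = |g| := one_mul _
  have hd : 0 < 1 - b * g := by linarith
  -- the set {n | φ n ≤ 1} is nonempty and bounded below
  have hne : ∃ n : ℤ, φ n ≤ 1 := by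
    obtain ⟨N, hN⟩ := exists_int_gt ((Y - X * g + |g|) / (1 - b * g))
    refine ⟨N, ?_⟩
    have h2 := abs_le.mp (hfl N)
    have h3 : Y - X * g + |g| < N * (1 - b * g) := by
      rwa [div_lt_iff₀ hd] at hN
    simp only [hφ]
    nlinarith [h2.1, h2.2]
  have hbd : ∃ B : ℤ, ∀ n : ℤ, φ n ≤ 1 → B ≤ n := by
    obtain ⟨N, hN⟩ := exists_int_lt ((Y - X * g - |g| - 1) / (1 - b * g))
    refine ⟨N, fun n hn => ?_⟩
    by_contra hlt
    push Not at hlt
    have h2 := abs_le.mp (hfl n)
    have h3 : N * (1 - b * g) < Y - X * g - |g| - 1 := by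
      rwa [lt_div_iff₀ hd] at hN
    have h4 : (n : ℝ) ≤ N := by exact_mod_cast hlt.le
    simp only [hφ] at hn
    nlinarith [h2.1, h2.2]
  obtain ⟨B, hB⟩ := hbd
  obtain ⟨n, hn, hmin⟩ := Int.exists_least_of_bdd (P := fun n => φ n ≤ 1) ⟨B, hB⟩ hne
  have hprev : 1 < φ (n - 1) := by
    by_contra hle
    push Not at hle
    have := hmin (n - 1) hle
    omega
  -- step ≥ -1
  have hstep : φ (n - 1) - 1 ≤ φ n := by
    simp only [hφ]
    push_cast
    have key : 0 ≤ ((⌊X - ((n : ℝ) - 1) * b⌋ : ℝ) - (⌊X - (n : ℝ) * b⌋ : ℝ)) * g := by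
      rcases le_total 0 b with hb | hb
      · have hg : 0 ≤ g ∨ b = 0 := by
          rcases hb.eq_or_lt with h | h
          · right; exact h.symm
          · left; by_contra hg; push Not at hg; nlinarith
        rcases hg with hg | hb0
        · apply mul_nonneg _ hg
          have : ⌊X - (n : ℝ) * b⌋ ≤ ⌊X - ((n : ℝ) - 1) * b⌋ := Int.floor_le_floor (by nlinarith)
          have : (⌊X - (n : ℝ) * b⌋ : ℝ) ≤ (⌊X - ((n : ℝ) - 1) * b⌋ : ℝ) := by exact_mod_cast this
          linarith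
        · subst hb0; simp
      · have hg : g ≤ 0 ∨ b = 0 := by
          rcases hb.eq_or_lt with h | h
          · right; exact h
          · left; by_contra hg; push Not at hg; nlinarith
        rcases hg with hg | hb0
        · apply mul_nonneg_of_nonpos_of_nonpos _ hg
          have : ⌊X - ((n : ℝ) - 1) * b⌋ ≤ ⌊X - (n : ℝ) * b⌋ := Int.floor_le_floor (by nlinarith)
          have : (⌊X - ((n : ℝ) - 1) * b⌋ : ℝ) ≤ (⌊X - (n : ℝ) * b⌋ : ℝ) := by exact_mod_cast this
          linarith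
        · subst hb0; simp
    nlinarith
  refine ⟨⌊X - n * b⌋, n, ?_, ?_, ?_, ?_⟩
  · have := Int.floor_le (X - n * b); linarith
  · have := Int.lt_floor_add_one (X - n * b); linarith
  · have : 0 ≤ φ n := by linarith
    simpa [hφ] using this
  · simpa [hφ] using hn

end Crest.Agent.helper6
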