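import Mathlib
import Crest.Agent.Lib_helper6.Lattice

set_option autoImplicit false

namespace Crest.Agent.helper6

/-- Zero-diagonal orthonormal frame of a traceless `2 × 2` matrix, in coordinates. -/
theorem frame_exists (α a12 a21 : ℝ) :
    ∃ x y : ℝ, x ^ 2 + y ^ 2 = 1 ∧ α * x ^ 2 + (a12 + a21) * (x * y) - α * y ^ 2 = 0 := by
  by_cases hα : α = 0
  · exact ⟨1, 0, by norm_num, by simp [hα]⟩
  · set s := a12 + a21 with hs
    set Δ := Real.sqrt (s ^ 2 + 4 * α ^ 2) with hΔ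
    have hΔ2 : Δ ^ 2 = s ^ 2 + 4 * α ^ 2 := Real.sq_sqrt (by positivity)
    set t := (-s + Δ) / (2 * α) with ht
    have hroot : α * t ^ 2 + s * t - α = 0 := by
      rw [ht]; field_simp; nlinarith [hΔ2]
    set n := Real.sqrt (t ^ 2 + 1) with hn
    have hn2 : n ^ 2 = t ^ 2 + 1 := Real.sq_sqrt (by positivity)
    have hnpos : 0 < n := Real.sqrt_pos.mpr (by positivity)
    refine ⟨t / n, 1 / n, ?_, ?_⟩
    · field_simp; linarith [hn2]
    · have hn0 : n ≠ 0 := hnpos.ne'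
      have : α * (t / n) ^ 2 + s * (t / n * (1 / n)) - α * (1 / n) ^ 2
          = (α * t ^ 2 + s * t - α) / n ^ 2 := by
        field_simp
      rw [this, hroot, zero_div]

/-- Scaled version of the lattice covering lemma. -/
theorem scaled_cover (b g r y₁ y₂ : ℝ) (hr : 0 < r) (h0 : 0 ≤ b * g) (h1 : b * g < 1) :
    ∃ m n : ℤ, 0 ≤ (y₁ - r * m) + b * (y₂ - r * n) ∧ (y₁ - r * m) + b * (y₂ - r * n) ≤ r ∧
      0 ≤ (y₂ - r * n) + g * (y₁ - r * m) ∧ (y₂ - r * n) + g * (y₁ - r * m) ≤ r := by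
  obtain ⟨m, n, h1, h2, h3, h4⟩ := lattice_cover b g ((y₁ + b * y₂) / r) ((g * y₁ + y₂) / r) h0 h1
  refine ⟨m, n, ?_, ?_, ?_, ?_⟩
  · have : (y₁ - r * m) + b * (y₂ - r * n) = r * ((y₁ + b * y₂) / r - m - n * b) := by
      field_simp; ring
    rw [this]; positivity
  · have : (y₁ - r * m) + b * (y₂ - r * n) = r * ((y₁ + b * y₂) / r - m - n * b) := by
      field_simp; ring
    rw [this]; nlinarith
  · have : (y₂ - r * n) + g * (y₁ - r * m) = r * ((g * y₁ + y₂) / r - m * g - n) := by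
      field_simp; ring
    rw [this]; positivity
  · have : (y₂ - r * n) + g * (y₁ - r * m) = r * ((g * y₁ + y₂) / r - m * g - n) := by
      field_simp; ring
    rw [this]; nlinarith

/-- Bound on the offsets produced by `scaled_cover`. -/
theorem offset_bound (b g r u₁ u₂ B d : ℝ) (hr : 0 < r) (hd : 0 < d) (hbg : b * g ≤ 1 - d)
    (hb : |b| ≤ B) (hg : |g| ≤ B)
    (h1 : 0 ≤ u₁ + b * u₂) (h2 : u₁ + b * u₂ ≤ r) (h3 : 0 ≤ u₂ + g * u₁) (h4 : u₂ + g * u₁ ≤ r) :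
    |u₁| ≤ (1 + B) / d * r ∧ |u₂| ≤ (1 + B) / d * r := by
  have hB : 0 ≤ B := le_trans (abs_nonneg _) hb
  have hD : d ≤ 1 - b * g := by linarith
  have hDpos : 0 < 1 - b * g := by linarith
  have e1 : (1 - b * g) * u₁ = (u₁ + b * u₂) - b * (u₂ + g * u₁) := by ring
  have e2 : (1 - b * g) * u₂ = (u₂ + g * u₁) - g * (u₁ + b * u₂) := by ring
  have k1 : |(1 - b * g) * u₁| ≤ (1 + B) * r := by
    rw [e1]
    calc |(u₁ + b * u₂) - b * (u₂ + g * u₁)| ≤ |u₁ + b * u₂| + |b * (u₂ + g * u₁)| := abs_sub _ _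
      _ = |u₁ + b * u₂| + |b| * |u₂ + g * u₁| := by rw [abs_mul]
      _ ≤ r + B * r := by
          have a1 : |u₁ + b * u₂| ≤ r := abs_le.mpr ⟨by linarith, h2⟩
          have a2 : |u₂ + g * u₁| ≤ r := abs_le.mpr ⟨by linarith, h4⟩
          gcongr
      _ = (1 + B) * r := by ring
  have k2 : |(1 - b * g) * u₂| ≤ (1 + B) * r := by
    rw [e2]
    calc |(u₂ + g * u₁) - g * (u₁ + b * u₂)| ≤ |u₂ + g * u₁| + |g * (u₁ + b * u₂)| := abs_sub _ _
      _ = |u₂ + g * u₁| + |g| * |u₁ + b * u₂| := by rw [abs_mul]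
      _ ≤ r + B * r := by
          have a1 : |u₁ + b * u₂| ≤ r := abs_le.mpr ⟨by linarith, h2⟩
          have a2 : |u₂ + g * u₁| ≤ r := abs_le.mpr ⟨by linarith, h4⟩
          gcongr
      _ = (1 + B) * r := by ring
  rw [abs_mul, abs_of_pos hDpos] at k1 k2
  constructor
  · rw [div_mul_eq_mul_div, le_div_iff₀ hd]
    calc |u₁| * d ≤ |u₁| * (1 - b * g) := by gcongr
      _ = (1 - b * g) * |u₁| := by ring
      _ ≤ _ := k1
  · rw [div_mul_eq_mul_div, le_div_iff₀ hd]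
    calc |u₂| * d ≤ |u₂| * (1 - b * g) := by gcongr
      _ = (1 - b * g) * |u₂| := by ring
      _ ≤ _ := k2

end Crest.Agent.helper6
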