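import Mathlib
import Crest.Agent.Lib_helper6.Frame

set_option autoImplicit false

open MeasureTheory

namespace Crest.Agent.helper6

abbrev E2 := EuclideanSpace ℝ (Fin 2)

/-- the point with coordinates `(u,v)` in the rotated frame `e₁ = (x,y)`, `e₂ = (-y,x)`. -/
noncomputable def fr (x y u v : ℝ) : E2 := !₂[u * x - v * y, u * y + v * x]

/-- first frame coordinate -/
def cu (x y : ℝ) (w : E2) : ℝ := x * w 0 + y * w 1
/-- second frame coordinate -/
def cv (x y : ℝ) (w : E2) : ℝ := -y * w 0 + x * w 1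

@[simp] lemma fr_zero (x y u v : ℝ) : fr x y u v 0 = u * x - v * y := by simp [fr]
@[simp] lemma fr_one (x y u v : ℝ) : fr x y u v 1 = u * y + v * x := by simp [fr]

lemma E2_ext {w z : E2} (h0 : w 0 = z 0) (h1 : w 1 = z 1) : w = z := by
  ext i; fin_cases i
  · exact h0
  · exact h1

lemma norm_sq_E2 (w : E2) : ‖w‖ ^ 2 = (w 0) ^ 2 + (w 1) ^ 2 := by
  rw [EuclideanSpace.norm_sq_eq]; simp [Fin.sum_univ_two]

lemma inner_E2 (w z : E2) : inner ℝ w z = w 0 * z 0 + w 1 * z 1 := by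
  simp [PiLp.inner_apply, Fin.sum_univ_two]; ring

lemma fr_add (x y u v u' v' : ℝ) : fr x y u v + fr x y u' v' = fr x y (u + u') (v + v') := by
  apply E2_ext <;> simp <;> ring

lemma fr_sub (x y u v u' v' : ℝ) : fr x y u v - fr x y u' v' = fr x y (u - u') (v - v') := by
  apply E2_ext <;> simp <;> ring

lemma fr_smul (x y s u v : ℝ) : s • fr x y u v = fr x y (s * u) (s * v) := by
  apply E2_ext <;> simp <;> ring

lemma fr_cu_cv {x y : ℝ} (h : x ^ 2 + y ^ 2 = 1) (w : E2) : fr x y (cu x y w) (cv x y w) = w := by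
  apply E2_ext
  · simp only [fr_zero, cu, cv]; linear_combination (w 0) * h
  · simp only [fr_one, cu, cv]; linear_combination (w 1) * h

lemma norm_sq_fr {x y : ℝ} (h : x ^ 2 + y ^ 2 = 1) (u v : ℝ) : ‖fr x y u v‖ ^ 2 = u ^ 2 + v ^ 2 := by
  rw [norm_sq_E2]; simp only [fr_zero, fr_one]; linear_combination (u ^ 2 + v ^ 2) * h

lemma cu_sq_add_cv_sq {x y : ℝ} (h : x ^ 2 + y ^ 2 = 1) (w : E2) :
    (cu x y w) ^ 2 + (cv x y w) ^ 2 = ‖w‖ ^ 2 := by
  rw [norm_sq_E2]; simp only [cu, cv]; linear_combination ((w 0) ^ 2 + (w 1) ^ 2) * h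

lemma abs_cu_le {x y : ℝ} (h : x ^ 2 + y ^ 2 = 1) (w : E2) : |cu x y w| ≤ ‖w‖ := by
  apply abs_le_of_sq_le_sq _ (norm_nonneg _)
  have := cu_sq_add_cv_sq h w
  nlinarith [sq_nonneg (cv x y w)]

lemma abs_cv_le {x y : ℝ} (h : x ^ 2 + y ^ 2 = 1) (w : E2) : |cv x y w| ≤ ‖w‖ := by
  apply abs_le_of_sq_le_sq _ (norm_nonneg _)
  have := cu_sq_add_cv_sq h w
  nlinarith [sq_nonneg (cu x y w)]

lemma norm_fr_le {x y : ℝ} (h : x ^ 2 + y ^ 2 = 1) (u v : ℝ) : ‖fr x y u v‖ ≤ |u| + |v| := by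
  apply le_of_sq_le_sq _ (by positivity)
  rw [norm_sq_fr h]
  nlinarith [abs_nonneg u, abs_nonneg v, sq_abs u, sq_abs v]

lemma abs_coord0_le (w : E2) : |w 0| ≤ ‖w‖ := by
  apply abs_le_of_sq_le_sq _ (norm_nonneg _)
  rw [norm_sq_E2]; nlinarith [sq_nonneg (w 1)]

lemma abs_coord1_le (w : E2) : |w 1| ≤ ‖w‖ := by
  apply abs_le_of_sq_le_sq _ (norm_nonneg _)
  rw [norm_sq_E2]; nlinarith [sq_nonneg (w 0)]

lemma norm_le_abs_add_abs (w : E2) : ‖w‖ ≤ |w 0| + |w 1| := by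
  apply le_of_sq_le_sq _ (by positivity)
  rw [norm_sq_E2]
  nlinarith [abs_nonneg (w 0), abs_nonneg (w 1), sq_abs (w 0), sq_abs (w 1)]

/-- half-open axis-parallel boxes -/
def hbox (a0 b0 a1 b1 : ℝ) : Set E2 := {w | a0 ≤ w 0 ∧ w 0 < b0 ∧ a1 ≤ w 1 ∧ w 1 < b1}

lemma hbox_eq_preimage (a0 b0 a1 b1 : ℝ) :
    hbox a0 b0 a1 b1 = (WithLp.ofLp : E2 → (Fin 2 → ℝ)) ⁻¹'
      (Set.univ.pi fun i => Set.Ico (![a0, a1] i) (![b0, b1] i)) := by
  ext w
  simp only [hbox, Set.mem_setOf_eq, Set.mem_preimage, Set.mem_pi, Set.mem_univ, forall_true_left,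
    Fin.forall_fin_two, Set.mem_Ico]
  simp
  tauto

lemma measurableSet_hbox (a0 b0 a1 b1 : ℝ) : MeasurableSet (hbox a0 b0 a1 b1) := by
  rw [hbox_eq_preimage]
  apply (PiLp.volume_preserving_ofLp (Fin 2)).measurable
  exact MeasurableSet.univ_pi fun i => measurableSet_Ico

lemma volume_hbox (a0 b0 a1 b1 : ℝ) (h0 : a0 ≤ b0) (h1 : a1 ≤ b1) :
    volume (hbox a0 b0 a1 b1) = ENNReal.ofReal ((b0 - a0) * (b1 - a1)) := by
  rw [hbox_eq_preimage, (PiLp.volume_preserving_ofLp (Fin 2)).measure_preimage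
    (MeasurableSet.univ_pi fun i => measurableSet_Ico).nullMeasurableSet, Real.volume_pi_Ico]
  simp only [Fin.prod_univ_two]
  rw [← ENNReal.ofReal_mul (by simpa using h0)]
  simp

/-- the rigid motion attached to a frame and a base point -/
noncomputable def rig (p₀ : E2) (x y : ℝ) (w : E2) : E2 := p₀ + fr x y (w 0) (w 1)

lemma isometry_rig (p₀ : E2) {x y : ℝ} (h : x ^ 2 + y ^ 2 = 1) : Isometry (rig p₀ x y) := by
  apply Isometry.of_dist_eq
  intro w z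
  rw [dist_eq_norm, dist_eq_norm]
  have : rig p₀ x y w - rig p₀ x y z = fr x y ((w - z) 0) ((w - z) 1) := by
    simp only [rig, add_sub_add_left_eq_sub, fr_sub]
    rfl
  rw [this]
  apply (sq_eq_sq₀ (norm_nonneg _) (norm_nonneg _)).mp
  rw [norm_sq_fr h, norm_sq_E2]

lemma volume_rig_image (p₀ : E2) {x y : ℝ} (h : x ^ 2 + y ^ 2 = 1) (s : Set E2) :
    volume (rig p₀ x y '' s) = volume s := by
  rw [← EuclideanSpace.euclideanHausdorffMeasure_eq_volume 2]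
  exact (isometry_rig p₀ h).euclideanHausdorffMeasure_image s

end Crest.Agent.helper6
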