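import Mathlib
import Crest.Agent.Lib_helper6.Geom

set_option autoImplicit false

open MeasureTheory

namespace Crest.Agent.helper6

noncomputable abbrev e0 : E2 := EuclideanSpace.single 0 1
noncomputable abbrev e1 : E2 := EuclideanSpace.single 1 1

lemma E2_decomp (w : E2) : w = w 0 • e0 + w 1 • e1 := by
  apply E2_ext <;> simp [e0, e1]

lemma clm_apply_E2 (A : E2 →L[ℝ] E2) (w : E2) : A w = w 0 • A e0 + w 1 • A e1 := by
  conv_lhs => rw [E2_decomp w]
  simp only [map_add, map_smul]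

lemma trace_E2 (A : E2 →L[ℝ] E2) :
    LinearMap.trace ℝ _ A.toLinearMap = A e0 0 + A e1 1 := by
  rw [LinearMap.trace_eq_matrix_trace ℝ (EuclideanSpace.basisFun (Fin 2) ℝ).toBasis,
    Matrix.trace_fin_two]
  simp [LinearMap.toMatrix_apply]

lemma det_E2 (A : E2 →L[ℝ] E2) :
    LinearMap.det A.toLinearMap = A e0 0 * A e1 1 - A e1 0 * A e0 1 := by
  rw [← LinearMap.det_toMatrix (EuclideanSpace.basisFun (Fin 2) ℝ).toBasis, Matrix.det_fin_two]
  simp [LinearMap.toMatrix_apply]

theorem normal_form (A : E2 →L[ℝ] E2) (htr : LinearMap.trace ℝ _ A.toLinearMap = 0) :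
    ∃ x y β γ : ℝ, x ^ 2 + y ^ 2 = 1 ∧ (∀ u v, A (fr x y u v) = fr x y (β * v) (γ * u)) ∧
      LinearMap.det A.toLinearMap = -(β * γ) ∧ |β| ≤ ‖A‖ ∧ |γ| ≤ ‖A‖ := by
  rw [trace_E2] at htr
  set α := A e0 0 with hα
  set a21 := A e0 1 with h21
  set a12 := A e1 0 with h12
  have h22 : A e1 1 = -α := by linarith
  obtain ⟨x, y, h1, hq⟩ := frame_exists α a12 a21
  have key : ∀ u v, A (fr x y u v) =
      fr x y ((a12 * x ^ 2 - a21 * y ^ 2 - 2 * α * x * y) * v)
        ((a21 * x ^ 2 - a12 * y ^ 2 - 2 * α * x * y) * u) := by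
    intro u v
    rw [← fr_cu_cv h1 (A (fr x y u v))]
    have c0 : A (fr x y u v) 0 = (u * x - v * y) * α + (u * y + v * x) * a12 := by
      rw [clm_apply_E2]; simp [hα, h12]
    have c1 : A (fr x y u v) 1 = (u * x - v * y) * a21 + (u * y + v * x) * (-α) := by
      rw [clm_apply_E2]; simp [h21, h22]
    congr 1
    · simp only [cu, c0, c1]; linear_combination u * hq
    · simp only [cv, c0, c1]; linear_combination (-v) * hq
  refine ⟨x, y, _, _, h1, key, ?_, ?_, ?_⟩
  · rw [det_E2, h22]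
    linear_combination ((α ^ 2 + a12 * a21) * (x ^ 2 + y ^ 2 + 1)) * h1
      - (α * x ^ 2 + (a12 + a21) * (x * y) - α * y ^ 2) * hq
  · have := A.le_opNorm (fr x y 0 1)
    rw [key] at this
    have n1 : ‖fr x y 0 1‖ = 1 := by
      have := norm_sq_fr h1 0 1
      have h0 := norm_nonneg (fr x y 0 1)
      nlinarith
    rw [n1, mul_one, mul_one, mul_zero] at this
    refine le_trans ?_ this
    apply abs_le_of_sq_le_sq _ (norm_nonneg _)
    rw [norm_sq_fr h1]; nlinarith
  · have := A.le_opNorm (fr x y 1 0)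
    rw [key] at this
    have n1 : ‖fr x y 1 0‖ = 1 := by
      have := norm_sq_fr h1 1 0
      have h0 := norm_nonneg (fr x y 1 0)
      nlinarith
    rw [n1, mul_one, mul_one, mul_zero] at this
    refine le_trans ?_ this
    apply abs_le_of_sq_le_sq _ (norm_nonneg _)
    rw [norm_sq_fr h1]; nlinarith

end Crest.Agent.helper6
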