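import Mathlib
import Crest.Agent.Lib_helper6.Mat

set_option autoImplicit false

open MeasureTheory

namespace Crest.Agent.helper6

/-- the weight `J` -/
noncomputable def Jw (h : ℝ) (g : E2) : ℝ := 1 / Real.sqrt (1 + (g 0) ^ 2 + h ^ 2 * (g 1) ^ 2)

lemma Jw_arg_pos (h : ℝ) (g : E2) : 0 < 1 + (g 0) ^ 2 + h ^ 2 * (g 1) ^ 2 := by positivity

lemma Jw_nonneg (h : ℝ) (g : E2) : 0 ≤ Jw h g := by unfold Jw; positivity

lemma Jw_le_one (h : ℝ) (g : E2) : Jw h g ≤ 1 := by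
  unfold Jw
  rw [div_le_one (Real.sqrt_pos.mpr (Jw_arg_pos h g))]
  apply Real.one_le_sqrt.mpr
  nlinarith [sq_nonneg (g 0), mul_nonneg (sq_nonneg h) (sq_nonneg (g 1))]

lemma continuous_Jw (h : ℝ) : Continuous (Jw h) := by
  unfold Jw
  apply Continuous.div continuous_const
  · apply Continuous.sqrt
    fun_prop
  · intro g
    exact (Real.sqrt_pos.mpr (Jw_arg_pos h g)).ne'

/-- the ruled set over `P` -/
def ruled (P : Set E2) (V : E2 → E2) (L : ℝ) : Set (ℝ × E2) :=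
  {z | ∃ p ∈ P, |z.1| ≤ L ∧ z.2 = p + z.1 • V p}

/-- a sheared square cylinder -/
def cyl (c a b g : E2) : Set (ℝ × E2) :=
  {z | ∃ x ∈ Set.Icc (0 : ℝ) 1, ∃ y ∈ Set.Icc (0 : ℝ) 1, z.2 = c + x • a + y • b + z.1 • g}

/-- `P`'s ruled set can be covered by finitely many sheared square cylinders at cost `≤ cost`. -/
def Cov (P : Set E2) (V : E2 → E2) (L h cost : ℝ) : Prop :=
  ∃ (ι : Type) (_ : Fintype ι) (c a b g : ι → E2),
    (∀ i, a i ≠ 0 ∧ ‖b i‖ = ‖a i‖ ∧ inner ℝ (a i) (b i) = 0) ∧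
    ruled P V L ⊆ ⋃ i, cyl (c i) (a i) (b i) (g i) ∧
    ∑ i, ‖a i‖ ^ 2 * Jw h (g i) ≤ cost

lemma Cov.mono {P : Set E2} {V : E2 → E2} {L h cost cost' : ℝ} (H : Cov P V L h cost)
    (hc : cost ≤ cost') : Cov P V L h cost' := by
  obtain ⟨ι, _, c, a, b, g, h1, h2, h3⟩ := H
  exact ⟨ι, _, c, a, b, g, h1, h2, h3.trans hc⟩

lemma Cov_empty (V : E2 → E2) (L h : ℝ) : Cov ∅ V L h 0 := by
  refine ⟨Empty, inferInstance, fun _ => 0, fun _ => 0, fun _ => 0, fun _ => 0, ?_, ?_, ?_⟩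
  · intro i; exact i.elim
  · rintro z ⟨p, hp, _⟩; exact hp.elim
  · simp

lemma Cov.union {P P' : Set E2} {V : E2 → E2} {L h cost cost' : ℝ} (H : Cov P V L h cost)
    (H' : Cov P' V L h cost') : Cov (P ∪ P') V L h (cost + cost') := by
  obtain ⟨ι, _, c, a, b, g, h1, h2, h3⟩ := H
  obtain ⟨ι', _, c', a', b', g', h1', h2', h3'⟩ := H'
  refine ⟨ι ⊕ ι', inferInstance, Sum.elim c c', Sum.elim a a', Sum.elim b b', Sum.elim g g',
    ?_, ?_, ?_⟩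
  · rintro (i | i)
    · exact h1 i
    · exact h1' i
  · rintro z ⟨p, hp | hp, hz⟩
    · obtain ⟨i, hi⟩ := Set.mem_iUnion.mp (h2 ⟨p, hp, hz⟩)
      exact Set.mem_iUnion.mpr ⟨Sum.inl i, hi⟩
    · obtain ⟨i, hi⟩ := Set.mem_iUnion.mp (h2' ⟨p, hp, hz⟩)
      exact Set.mem_iUnion.mpr ⟨Sum.inr i, hi⟩
  · rw [Fintype.sum_sum_type]
    simp only [Sum.elim_inl, Sum.elim_inr]
    exact add_le_add h3 h3'

lemma Cov.biUnion {κ : Type*} (s : Finset κ) {P : κ → Set E2} {V : E2 → E2} {L h : ℝ}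
    {cost : κ → ℝ} (H : ∀ i ∈ s, Cov (P i) V L h (cost i)) :
    Cov (⋃ i ∈ s, P i) V L h (∑ i ∈ s, cost i) := by
  classical
  induction s using Finset.induction_on with
  | empty => simpa using Cov_empty V L h
  | insert i s hi ih =>
    rw [Finset.sum_insert hi, Finset.set_biUnion_insert]
    exact (H i (Finset.mem_insert_self i s)).union
      (ih fun j hj => H j (Finset.mem_insert_of_mem hj))

/-- Conversion to the form of the target statement. -/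
lemma Cov.toFin {P : Set E2} {V : E2 → E2} {L h cost : ℝ} (H : Cov P V L h cost) :
    ∃ (k : ℕ) (c a b g : Fin k → EuclideanSpace ℝ (Fin 2)),
      (∀ i, a i ≠ 0 ∧ ‖b i‖ = ‖a i‖ ∧ inner ℝ (a i) (b i) = 0) ∧
      {z : ℝ × EuclideanSpace ℝ (Fin 2) | ∃ p ∈ P, abs z.1 ≤ L ∧ z.2 = p + z.1 • V p} ⊆
        ⋃ i, {z : ℝ × EuclideanSpace ℝ (Fin 2) | ∃ x ∈ Set.Icc (0 : ℝ) 1, ∃ y ∈ Set.Icc (0 : ℝ) 1,
          z.2 = c i + x • a i + y • b i + z.1 • g i} ∧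
      ∑ i, ‖a i‖ ^ 2 / Real.sqrt (1 + (g i 0) ^ 2 + h ^ 2 * (g i 1) ^ 2) ≤ cost := by
  obtain ⟨ι, _, c, a, b, g, h1, h2, h3⟩ := H
  let e := (Fintype.equivFin ι).symm
  refine ⟨Fintype.card ι, c ∘ e, a ∘ e, b ∘ e, g ∘ e, fun i => h1 (e i), ?_, ?_⟩
  · intro z hz
    obtain ⟨i, hi⟩ := Set.mem_iUnion.mp (h2 hz)
    refine Set.mem_iUnion.mpr ⟨e.symm i, ?_⟩
    simpa [cyl] using hi
  · refine le_trans (le_of_eq ?_) h3
    rw [← Equiv.sum_comp e]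
    apply Finset.sum_congr rfl
    intro i _
    simp only [Function.comp, Jw]
    ring

end Crest.Agent.helper6
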