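import Mathlib
import Crest.Agent.Lib_helper6.Cov

set_option autoImplicit false

open MeasureTheory

namespace Crest.Agent.helper6

/-- grid cells of mesh `r` -/
def gcell (r : ℝ) (mn : ℤ × ℤ) : Set E2 :=
  hbox (r * mn.1) (r * mn.1 + r) (r * mn.2) (r * mn.2 + r)

lemma measurableSet_gcell (r : ℝ) (mn : ℤ × ℤ) : MeasurableSet (gcell r mn) :=
  measurableSet_hbox _ _ _ _

lemma volume_gcell {r : ℝ} (hr : 0 < r) (mn : ℤ × ℤ) :
    volume (gcell r mn) = ENNReal.ofReal (r ^ 2) := by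
  unfold gcell
  rw [volume_hbox _ _ _ _ (by linarith) (by linarith)]
  congr 1; ring

lemma grid_unique {r t : ℝ} (hr : 0 < r) {m m' : ℤ} (h1 : r * m ≤ t) (h2 : t < r * m + r)
    (h1' : r * m' ≤ t) (h2' : t < r * m' + r) : m = m' := by
  have a : (m : ℝ) < m' + 1 := by
    have : r * m < r * (m' + 1) := by linarith
    exact lt_of_mul_lt_mul_left this hr.le
  have b : (m' : ℝ) < m + 1 := by
    have : r * m' < r * (m + 1) := by linarith
    exact lt_of_mul_lt_mul_left this hr.le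
  have a' : m < m' + 1 := by exact_mod_cast a
  have b' : m' < m + 1 := by exact_mod_cast b
  omega

lemma gcell_unique {r : ℝ} (hr : 0 < r) {mn mn' : ℤ × ℤ} {w : E2} (h : w ∈ gcell r mn)
    (h' : w ∈ gcell r mn') : mn = mn' := by
  obtain ⟨a1, a2, a3, a4⟩ := h
  obtain ⟨b1, b2, b3, b4⟩ := h'
  exact Prod.ext (grid_unique hr a1 a2 b1 b2) (grid_unique hr a3 a4 b3 b4)

lemma gcell_disjoint {r : ℝ} (hr : 0 < r) {mn mn' : ℤ × ℤ} (hne : mn ≠ mn') :
    Disjoint (gcell r mn) (gcell r mn') :=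
  Set.disjoint_left.mpr fun _ h h' => hne (gcell_unique hr h h')

lemma exists_gcell {r : ℝ} (hr : 0 < r) (w : E2) : ∃ mn, w ∈ gcell r mn := by
  refine ⟨(⌊w 0 / r⌋, ⌊w 1 / r⌋), ?_, ?_, ?_, ?_⟩
  · have := Int.floor_le (w 0 / r)
    rw [le_div_iff₀ hr] at this; simpa [mul_comm] using this
  · have := Int.lt_floor_add_one (w 0 / r)
    rw [div_lt_iff₀ hr] at this
    simp only; linarith
  · have := Int.floor_le (w 1 / r)
    rw [le_div_iff₀ hr] at this; simpa [mul_comm] using this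
  · have := Int.lt_floor_add_one (w 1 / r)
    rw [div_lt_iff₀ hr] at this
    simp only; linarith

lemma gcell_dist {r : ℝ} {mn : ℤ × ℤ} {w z : E2} (h : w ∈ gcell r mn)
    (h' : z ∈ gcell r mn) : ‖w - z‖ ≤ 2 * r := by
  obtain ⟨a1, a2, a3, a4⟩ := h
  obtain ⟨b1, b2, b3, b4⟩ := h'
  refine (norm_le_abs_add_abs _).trans ?_
  have e0 : |(w - z) 0| ≤ r := by
    simp only [PiLp.sub_apply]; rw [abs_le]; constructor <;> linarith
  have e1 : |(w - z) 1| ≤ r := by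
    simp only [PiLp.sub_apply]; rw [abs_le]; constructor <;> linarith
  linarith

lemma finite_int_pairs (N : ℝ) : {mn : ℤ × ℤ | |(mn.1 : ℝ)| ≤ N ∧ |(mn.2 : ℝ)| ≤ N}.Finite := by
  apply (Set.finite_Icc ((-⌈N⌉, -⌈N⌉) : ℤ × ℤ) (⌈N⌉, ⌈N⌉)).subset
  rintro ⟨m, n⟩ ⟨h1, h2⟩
  simp only at h1 h2
  rw [abs_le] at h1 h2
  have hN := Int.le_ceil N
  refine ⟨Prod.mk_le_mk.mpr ⟨?_, ?_⟩, Prod.mk_le_mk.mpr ⟨?_, ?_⟩⟩
  · have : (-(⌈N⌉ : ℝ)) ≤ m := by linarith
    exact_mod_cast this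
  · have : (-(⌈N⌉ : ℝ)) ≤ n := by linarith
    exact_mod_cast this
  · have : (m : ℝ) ≤ ⌈N⌉ := by linarith
    exact_mod_cast this
  · have : (n : ℝ) ≤ ⌈N⌉ := by linarith
    exact_mod_cast this

lemma volume_biUnion_gcell {r : ℝ} (hr : 0 < r) (I : Finset (ℤ × ℤ)) :
    volume (⋃ mn ∈ I, gcell r mn) = ENNReal.ofReal (I.card * r ^ 2) := by
  rw [measure_biUnion_finset (fun i _ j _ hij => gcell_disjoint hr hij)
    (fun i _ => measurableSet_gcell r i)]
  simp only [volume_gcell hr, Finset.sum_const, nsmul_eq_mul]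
  rw [ENNReal.ofReal_mul (by positivity), ENNReal.ofReal_natCast]

/-- Counting rotated grid cells inside a set of known volume. -/
lemma card_mul_sq_le {r : ℝ} (hr : 0 < r) (I : Finset (ℤ × ℤ)) (p₀ : E2) {x y : ℝ}
    (h : x ^ 2 + y ^ 2 = 1) (B : Set E2) (vB : ℝ) (hvB : 0 ≤ vB)
    (hB : volume B ≤ ENNReal.ofReal vB)
    (hsub : ∀ mn ∈ I, rig p₀ x y '' gcell r mn ⊆ B) : (I.card : ℝ) * r ^ 2 ≤ vB := by
  have h1 : rig p₀ x y '' (⋃ mn ∈ I, gcell r mn) ⊆ B := by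
    rw [Set.image_iUnion₂]
    exact Set.iUnion₂_subset hsub
  have h2 := (measure_mono h1).trans hB
  rw [volume_rig_image p₀ h, volume_biUnion_gcell hr] at h2
  exact (ENNReal.ofReal_le_ofReal_iff hvB).mp h2

end Crest.Agent.helper6
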