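import Mathlib
import Crest.Agent.Lib_helper6.Grid

set_option autoImplicit false

open MeasureTheory

namespace Crest.Agent.helper6

theorem cell_cov (P : Set E2) (V : E2 → E2) (L h : ℝ) (hL : 0 < L)
    (ρ : ℝ) (hρ : 0 < ρ) (Q : ℤ × ℤ) (hPQ : P ⊆ gcell ρ Q) (p₀ : E2) (hp₀ : p₀ ∈ gcell ρ Q)
    (v₀ : E2) (x y β γ : ℝ) (hxy : x ^ 2 + y ^ 2 = 1)
    (M d : ℝ) (hd : 0 < d) (hβγ0 : 0 ≤ β * γ) (hβγ1 : L ^ 2 * (β * γ) ≤ 1 - d)
    (hβ : |β| ≤ M) (hγ : |γ| ≤ M)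
    (μ : ℝ) (hμ : 0 ≤ μ)
    (hres : ∀ p ∈ P, L * ‖V p - v₀ - fr x y (β * cv x y (p - p₀)) (γ * cu x y (p - p₀))‖ ≤ μ)
    (r : ℝ) (hr : 0 < r) (j : ℝ) (hj0 : 0 ≤ j)
    (hj : ∀ g : E2, ‖g - v₀‖ ≤ 2 * M * (2 * ρ + (1 + L * M) / d * r) → Jw h g ≤ j)
    (ν : ℝ) (hν : 0 ≤ ν) (hμν : 2 * μ ≤ ν * r) (htν : 4 * ((1 + L * M) / d + 1) * r ≤ ν * ρ) :
    Cov P V L h ((1 + ν) ^ 4 * ρ ^ 2 * j) := by
  classical
  have hM : 0 ≤ M := (abs_nonneg _).trans hβ
  set C₁ := (1 + L * M) / d with hC₁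
  have hC₁0 : 0 ≤ C₁ := by positivity
  -- the index set
  let Iset : Set (ℤ × ℤ) := {mn | ∃ p ∈ P, |cu x y (p - p₀) - r * mn.1| ≤ C₁ * r ∧
    |cv x y (p - p₀) - r * mn.2| ≤ C₁ * r}
  have hbd : ∀ mn ∈ Iset, |r * (mn.1 : ℝ)| ≤ 2 * ρ + C₁ * r ∧ |r * (mn.2 : ℝ)| ≤ 2 * ρ + C₁ * r := by
    rintro mn ⟨p, hp, h1, h2⟩
    have hpp : ‖p - p₀‖ ≤ 2 * ρ := gcell_dist (hPQ hp) hp₀
    have hcu := (abs_cu_le hxy (p - p₀)).trans hpp
    have hcv := (abs_cv_le hxy (p - p₀)).trans hpp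
    rw [abs_le] at h1 h2 hcu hcv ⊢
    rw [abs_le]
    refine ⟨⟨?_, ?_⟩, ⟨?_, ?_⟩⟩ <;> linarith [h1.1, h1.2, h2.1, h2.2, hcu.1, hcu.2, hcv.1, hcv.2]
  have hfin : Iset.Finite := by
    apply (finite_int_pairs ((2 * ρ + C₁ * r) / r)).subset
    intro mn hmn
    obtain ⟨h1, h2⟩ := hbd mn hmn
    rw [abs_mul, abs_of_pos hr] at h1 h2
    constructor
    · rw [le_div_iff₀ hr]; linarith
    · rw [le_div_iff₀ hr]; linarith
  let I : Finset (ℤ × ℤ) := hfin.toFinset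
  have hI : ∀ mn, mn ∈ I ↔ mn ∈ Iset := fun mn => hfin.mem_toFinset
  have hrμ : 0 < r + 2 * μ := by linarith
  refine ⟨↥I, inferInstance,
    fun i => p₀ + fr x y (r * (i.1.1 : ℝ) - μ) (r * (i.1.2 : ℝ) - μ),
    fun _ => fr x y (r + 2 * μ) 0, fun _ => fr x y 0 (r + 2 * μ),
    fun i => v₀ + fr x y (β * (r * (i.1.2 : ℝ))) (γ * (r * (i.1.1 : ℝ))), ?_, ?_, ?_⟩
  · intro i
    have na : ‖fr x y (r + 2 * μ) 0‖ ^ 2 = (r + 2 * μ) ^ 2 := by rw [norm_sq_fr hxy]; ring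
    have nb : ‖fr x y 0 (r + 2 * μ)‖ ^ 2 = (r + 2 * μ) ^ 2 := by rw [norm_sq_fr hxy]; ring
    refine ⟨?_, ?_, ?_⟩
    · intro h0
      simp only at h0
      rw [h0] at na
      simp at na
      have : 0 < (r + 2 * μ) ^ 2 := by positivity
      linarith
    · apply (sq_eq_sq₀ (norm_nonneg _) (norm_nonneg _)).mp
      rw [na, nb]
    · rw [inner_E2]; simp only [fr_zero, fr_one]; ring
  · rintro ⟨s, ξ⟩ ⟨p, hp, hs, hξ⟩
    simp only at hs hξ
    set y₁ := cu x y (p - p₀) with hy₁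
    set y₂ := cv x y (p - p₀) with hy₂
    have hs2 : s ^ 2 ≤ L ^ 2 := by
      rw [← sq_abs s]; exact pow_le_pow_left₀ (abs_nonneg s) hs 2
    have hb0 : 0 ≤ (s * β) * (s * γ) := by
      have : (s * β) * (s * γ) = s ^ 2 * (β * γ) := by ring
      rw [this]; positivity
    have hb1 : (s * β) * (s * γ) ≤ 1 - d := by
      have : (s * β) * (s * γ) = s ^ 2 * (β * γ) := by ring
      rw [this]
      exact (mul_le_mul_of_nonneg_right hs2 hβγ0).trans hβγ1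
    obtain ⟨m, n, k1, k2, k3, k4⟩ := scaled_cover (s * β) (s * γ) r y₁ y₂ hr hb0 (by linarith)
    have hsβ : |s * β| ≤ L * M := by
      rw [abs_mul]; exact mul_le_mul hs hβ (abs_nonneg _) hL.le
    have hsγ : |s * γ| ≤ L * M := by
      rw [abs_mul]; exact mul_le_mul hs hγ (abs_nonneg _) hL.le
    obtain ⟨o1, o2⟩ := offset_bound (s * β) (s * γ) r (y₁ - r * m) (y₂ - r * n) (L * M) d hr hd hb1
      hsβ hsγ k1 k2 k3 k4
    have hmem : (m, n) ∈ I := (hI _).mpr ⟨p, hp, o1, o2⟩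
    set res := V p - v₀ - fr x y (β * y₂) (γ * y₁) with hresdef
    have hres' : L * ‖res‖ ≤ μ := hres p hp
    have hsres : |s| * ‖res‖ ≤ μ :=
      (mul_le_mul_of_nonneg_right hs (norm_nonneg _)).trans hres'
    have r1 : |s * cu x y res| ≤ μ := by
      rw [abs_mul]
      exact (mul_le_mul_of_nonneg_left (abs_cu_le hxy res) (abs_nonneg s)).trans hsres
    have r2 : |s * cv x y res| ≤ μ := by
      rw [abs_mul]
      exact (mul_le_mul_of_nonneg_left (abs_cv_le hxy res) (abs_nonneg s)).trans hsres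
    rw [abs_le] at r1 r2
    refine Set.mem_iUnion.mpr ⟨⟨(m, n), hmem⟩, ?_⟩
    set X := ((y₁ - r * m) + s * β * (y₂ - r * n) + s * cu x y res + μ) / (r + 2 * μ) with hX
    set Y := ((y₂ - r * n) + s * γ * (y₁ - r * m) + s * cv x y res + μ) / (r + 2 * μ) with hY
    have hX' : X * (r + 2 * μ) = (y₁ - r * m) + s * β * (y₂ - r * n) + s * cu x y res + μ := by
      rw [hX]; field_simp
    have hY' : Y * (r + 2 * μ) = (y₂ - r * n) + s * γ * (y₁ - r * m) + s * cv x y res + μ := by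
      rw [hY]; field_simp
    refine ⟨X, ⟨?_, ?_⟩, Y, ⟨?_, ?_⟩, ?_⟩
    · rw [hX]; apply div_nonneg _ hrμ.le; linarith [r1.1]
    · rw [hX, div_le_one hrμ]; linarith [r1.2]
    · rw [hY]; apply div_nonneg _ hrμ.le; linarith [r2.1]
    · rw [hY, div_le_one hrμ]; linarith [r2.2]
    · simp only
      have ep : p = p₀ + fr x y y₁ y₂ := by
        rw [hy₁, hy₂, fr_cu_cv hxy]; abel
      have eV : V p = v₀ + fr x y (β * y₂) (γ * y₁) + fr x y (cu x y res) (cv x y res) := by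
        rw [fr_cu_cv hxy, hresdef]; abel
      rw [hξ, eV]
      conv_lhs => rw [ep]
      simp only [smul_add, fr_smul]
      have : p₀ + fr x y (r * (m : ℝ) - μ) (r * (n : ℝ) - μ) + fr x y (X * (r + 2 * μ)) (X * 0)
          + fr x y (Y * 0) (Y * (r + 2 * μ))
          + (s • v₀ + fr x y (s * (β * (r * (n : ℝ)))) (s * (γ * (r * (m : ℝ)))))
          = p₀ + s • v₀ + (fr x y (r * (m : ℝ) - μ) (r * (n : ℝ) - μ)
            + fr x y (X * (r + 2 * μ)) (X * 0) + fr x y (Y * 0) (Y * (r + 2 * μ))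
            + fr x y (s * (β * (r * (n : ℝ)))) (s * (γ * (r * (m : ℝ))))) := by abel
      rw [this]
      have : p₀ + fr x y y₁ y₂ + (s • v₀ + fr x y (s * (β * y₂)) (s * (γ * y₁))
          + fr x y (s * cu x y res) (s * cv x y res))
          = p₀ + s • v₀ + (fr x y y₁ y₂ + fr x y (s * (β * y₂)) (s * (γ * y₁))
          + fr x y (s * cu x y res) (s * cv x y res)) := by abel
      rw [this]
      congr 1
      simp only [fr_add, hX', hY']
      congr 1 <;> ring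
  · -- the cost
    have na : ‖fr x y (r + 2 * μ) 0‖ ^ 2 = (r + 2 * μ) ^ 2 := by rw [norm_sq_fr hxy]; ring
    have hJ : ∀ i : ↥I, Jw h (v₀ + fr x y (β * (r * (i.1.2 : ℝ))) (γ * (r * (i.1.1 : ℝ)))) ≤ j := by
      intro i
      apply hj
      obtain ⟨b1, b2⟩ := hbd i.1 ((hI _).mp i.2)
      rw [add_sub_cancel_left]
      refine (norm_fr_le hxy _ _).trans ?_
      rw [abs_mul β, abs_mul γ]
      have t1 : |β| * |r * (i.1.2 : ℝ)| ≤ M * (2 * ρ + C₁ * r) :=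
        mul_le_mul hβ b2 (abs_nonneg _) hM
      have t2 : |γ| * |r * (i.1.1 : ℝ)| ≤ M * (2 * ρ + C₁ * r) :=
        mul_le_mul hγ b1 (abs_nonneg _) hM
      linarith
    have hsum : ∑ i : ↥I, ‖fr x y (r + 2 * μ) 0‖ ^ 2 *
        Jw h (v₀ + fr x y (β * (r * (i.1.2 : ℝ))) (γ * (r * (i.1.1 : ℝ))))
        ≤ ∑ _i : ↥I, (r + 2 * μ) ^ 2 * j := by
      apply Finset.sum_le_sum
      intro i _
      rw [na]
      exact mul_le_mul_of_nonneg_left (hJ i) (by positivity)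
    refine hsum.trans ?_
    rw [Finset.sum_const, Finset.card_univ, Fintype.card_coe, nsmul_eq_mul]
    -- counting
    set t := 2 * (C₁ + 1) * r with ht
    have ht0 : 0 ≤ t := by positivity
    have hcount : (I.card : ℝ) * r ^ 2 ≤ (ρ + 2 * t) ^ 2 := by
      apply card_mul_sq_le hr I p₀ hxy
        (hbox (ρ * Q.1 - t) (ρ * Q.1 + ρ + t) (ρ * Q.2 - t) (ρ * Q.2 + ρ + t)) _ (by positivity)
      · rw [volume_hbox _ _ _ _ (by linarith) (by linarith)]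
        apply le_of_eq; congr 1; ring
      · rintro mn hmn _ ⟨w, hw, rfl⟩
        obtain ⟨p, hp, h1, h2⟩ := (hI _).mp hmn
        obtain ⟨w1, w2, w3, w4⟩ := hw
        obtain ⟨q1, q2, q3, q4⟩ := hPQ hp
        have ep : p = p₀ + fr x y (cu x y (p - p₀)) (cv x y (p - p₀)) := by
          rw [fr_cu_cv hxy]; abel
        have ediff : rig p₀ x y w - p
            = fr x y (w 0 - cu x y (p - p₀)) (w 1 - cv x y (p - p₀)) := by
          conv_lhs => rw [ep]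
          simp only [rig, add_sub_add_left_eq_sub, fr_sub]
        have hn : ‖rig p₀ x y w - p‖ ≤ t := by
          rw [ediff]
          refine (norm_fr_le hxy _ _).trans ?_
          rw [abs_le] at h1 h2
          have a1 : |w 0 - cu x y (p - p₀)| ≤ (C₁ + 1) * r := by
            rw [abs_le]; constructor <;> linarith [h1.1, h1.2]
          have a2 : |w 1 - cv x y (p - p₀)| ≤ (C₁ + 1) * r := by
            rw [abs_le]; constructor <;> linarith [h2.1, h2.2]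
          rw [ht]; linarith
        have c0 := (abs_coord0_le (rig p₀ x y w - p)).trans hn
        have c1 := (abs_coord1_le (rig p₀ x y w - p)).trans hn
        simp only [PiLp.sub_apply] at c0 c1
        rw [abs_le] at c0 c1
        refine ⟨?_, ?_, ?_, ?_⟩ <;> linarith [c0.1, c0.2, c1.1, c1.2]
    have h2t : 2 * t ≤ ν * ρ := by rw [ht]; linarith
    have e1 : (r + 2 * μ) ^ 2 ≤ (1 + ν) ^ 2 * r ^ 2 := by
      rw [← mul_pow]
      apply pow_le_pow_left₀ hrμ.le; linarith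
    have e2 : (ρ + 2 * t) ^ 2 ≤ (1 + ν) ^ 2 * ρ ^ 2 := by
      rw [← mul_pow]
      apply pow_le_pow_left₀ (by positivity); linarith
    calc (I.card : ℝ) * ((r + 2 * μ) ^ 2 * j) ≤ (I.card : ℝ) * ((1 + ν) ^ 2 * r ^ 2 * j) := by
          gcongr
      _ = ((I.card : ℝ) * r ^ 2) * ((1 + ν) ^ 2 * j) := by ring
      _ ≤ ((1 + ν) ^ 2 * ρ ^ 2) * ((1 + ν) ^ 2 * j) := by
          apply mul_le_mul_of_nonneg_right (hcount.trans e2) (by positivity)
      _ = (1 + ν) ^ 4 * ρ ^ 2 * j := by ring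

end Crest.Agent.helper6
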