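import Mathlib
import Crest.Agent.Lib_helper6.Cell

set_option autoImplicit false

open MeasureTheory Topology Filter

namespace Crest.Agent.helper6

/-- Uniform differentiability of a `C¹` map on a compact set. -/
theorem unif_diff (D U : Set E2) (hD : IsCompact D) (hU : IsOpen U) (hDU : D ⊆ U) (V : E2 → E2)
    (hV : ContDiffOn ℝ 1 V U) (ω : ℝ) (hω : 0 < ω) :
    ∃ δ > 0, ∀ p₀ ∈ D, ∀ p, ‖p - p₀‖ < δ →
      ‖V p - V p₀ - fderiv ℝ V p₀ (p - p₀)‖ ≤ ω * ‖p - p₀‖ := by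
  have hcont : ContinuousOn (fderiv ℝ V) U := hV.continuousOn_fderiv_of_isOpen hU le_rfl
  have hloc : ∀ q : D, ∃ δ > 0, ∀ p₀ ∈ Metric.ball (q : E2) δ, ∀ p ∈ Metric.ball (q : E2) δ,
      ‖V p - V p₀ - fderiv ℝ V p₀ (p - p₀)‖ ≤ ω * ‖p - p₀‖ := by
    rintro ⟨q, hq⟩
    have hqU := hDU hq
    have hstrict : HasStrictFDerivAt V (fderiv ℝ V q) q :=
      (hV.contDiffAt (hU.mem_nhds hqU)).hasStrictFDerivAt (by norm_num)
    have h1 := hstrict.isLittleO.def (half_pos hω)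
    have hca : ContinuousAt (fderiv ℝ V) q := hcont.continuousAt (hU.mem_nhds hqU)
    have h2 : ∀ᶠ p₀ in 𝓝 q, ‖fderiv ℝ V p₀ - fderiv ℝ V q‖ < ω / 2 := by
      have := hca.eventually (Metric.ball_mem_nhds (fderiv ℝ V q) (half_pos hω))
      simpa [Metric.mem_ball, dist_eq_norm] using this
    have h3 : ∀ᶠ z in 𝓝 (q, q), ‖fderiv ℝ V z.2 - fderiv ℝ V q‖ < ω / 2 :=
      (continuous_snd.tendsto (q, q)).eventually h2
    obtain ⟨δ, hδ, hball⟩ := Metric.eventually_nhds_iff_ball.mp (h1.and h3)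
    refine ⟨δ, hδ, fun p₀ hp₀ p hp => ?_⟩
    have hz : (p, p₀) ∈ Metric.ball (q, q) δ := by
      rw [← ball_prod_same]; exact ⟨hp, hp₀⟩
    obtain ⟨a1, a2⟩ := hball (p, p₀) hz
    simp only at a1 a2
    have e : V p - V p₀ - fderiv ℝ V p₀ (p - p₀)
        = (V p - V p₀ - fderiv ℝ V q (p - p₀)) - (fderiv ℝ V p₀ - fderiv ℝ V q) (p - p₀) := by
      simp only [ContinuousLinearMap.sub_apply]; abel
    rw [e]
    calc _ ≤ ‖V p - V p₀ - fderiv ℝ V q (p - p₀)‖ + ‖(fderiv ℝ V p₀ - fderiv ℝ V q) (p - p₀)‖ :=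
          norm_sub_le _ _
      _ ≤ ω / 2 * ‖p - p₀‖ + ω / 2 * ‖p - p₀‖ := by
          apply add_le_add a1
          exact ((fderiv ℝ V p₀ - fderiv ℝ V q).le_opNorm _).trans
            (mul_le_mul_of_nonneg_right a2.le (norm_nonneg _))
      _ = ω * ‖p - p₀‖ := by ring
  choose δ hδ hprop using hloc
  obtain ⟨δ₀, hδ₀, hleb⟩ := lebesgue_number_lemma_of_metric hD
    (c := fun q : D => Metric.ball (q : E2) (δ q)) (fun q => Metric.isOpen_ball)
    (fun p hp => Set.mem_iUnion.mpr ⟨⟨p, hp⟩, Metric.mem_ball_self (hδ _)⟩)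
  refine ⟨δ₀, hδ₀, fun p₀ hp₀ p hp => ?_⟩
  obtain ⟨q, hq⟩ := hleb p₀ hp₀
  exact hprop q p₀ (hq (Metric.mem_ball_self hδ₀)) p
    (hq (by rw [Metric.mem_ball, dist_eq_norm]; exact hp))

/-- Compactness constants. -/
theorem exists_consts (D U : Set E2) (hD : IsCompact D) (hU : IsOpen U) (hDU : D ⊆ U) (V : E2 → E2)
    (hV : ContDiffOn ℝ 1 V U) (L : ℝ) (hL : 0 < L)
    (hdet : ∀ p ∈ D, -(L ^ 2)⁻¹ < LinearMap.det (fderiv ℝ V p).toLinearMap) :
    ∃ M d : ℝ, 0 < d ∧ (∀ p ∈ D, ‖fderiv ℝ V p‖ ≤ M) ∧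
      ∀ p ∈ D, L ^ 2 * (-(LinearMap.det (fderiv ℝ V p).toLinearMap)) ≤ 1 - d := by
  have hcont : ContinuousOn (fderiv ℝ V) D :=
    (hV.continuousOn_fderiv_of_isOpen hU le_rfl).mono hDU
  obtain ⟨M, hM⟩ := hD.exists_bound_of_continuousOn hcont
  rcases D.eq_empty_or_nonempty with rfl | hne
  · exact ⟨M, 1, one_pos, hM, by simp⟩
  have hcd : ContinuousOn (fun p => (fderiv ℝ V p).det) D :=
    ContinuousLinearMap.continuous_det.comp_continuousOn hcont
  obtain ⟨q, hq, hmin⟩ := hD.exists_isMinOn hne hcd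
  have hL2 : 0 < L ^ 2 := by positivity
  refine ⟨M, 1 + L ^ 2 * (fderiv ℝ V q).det, ?_, hM, fun p hp => ?_⟩
  · have := hdet q hq
    have h2 : L ^ 2 * (-(L ^ 2)⁻¹) < L ^ 2 * (fderiv ℝ V q).det :=
      mul_lt_mul_of_pos_left this hL2
    have h3 : L ^ 2 * (-(L ^ 2)⁻¹) = -1 := by field_simp
    linarith
  · have : (fderiv ℝ V q).det ≤ (fderiv ℝ V p).det := hmin hp
    have h2 := mul_le_mul_of_nonneg_left this hL2.le
    have e : LinearMap.det (fderiv ℝ V p).toLinearMap = (fderiv ℝ V p).det := rfl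
    rw [e]; linarith

/-- uniform continuity of `J ∘ V` on `D` -/
theorem unif_JV (D : Set E2) (hD : IsCompact D) (V : E2 → E2) (hVc : ContinuousOn V D) (h : ℝ)
    (σ : ℝ) (hσ : 0 < σ) :
    ∃ δ > 0, ∀ p ∈ D, ∀ q ∈ D, ‖p - q‖ < δ → |Jw h (V p) - Jw h (V q)| < σ := by
  have hc : ContinuousOn (fun p => Jw h (V p)) D := (continuous_Jw h).comp_continuousOn hVc
  have hu := hD.uniformContinuousOn_of_continuous hc
  rw [Metric.uniformContinuousOn_iff] at hu
  obtain ⟨δ, hδ, H⟩ := hu σ hσ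
  refine ⟨δ, hδ, fun p hp q hq hpq => ?_⟩
  have := H p hp q hq (by rwa [dist_eq_norm])
  rwa [Real.dist_eq] at this

/-- uniform continuity of `J` near `V '' D` -/
theorem unif_J (D : Set E2) (hD : IsCompact D) (V : E2 → E2) (hVc : ContinuousOn V D) (h : ℝ)
    (σ : ℝ) (hσ : 0 < σ) :
    ∃ η > 0, ∀ p ∈ D, ∀ g : E2, ‖g - V p‖ < η → Jw h g ≤ Jw h (V p) + σ := by
  have hK : IsCompact (V '' D) := hD.image_of_continuousOn hVc
  have := hK.uniformContinuousAt_of_continuousAt (Jw h)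
    (fun a _ => (continuous_Jw h).continuousAt) (Metric.dist_mem_uniformity hσ)
  obtain ⟨η, hη, H⟩ := Metric.mem_uniformity_dist.mp this
  refine ⟨η, hη, fun p hp g hg => ?_⟩
  have h1 : dist (V p) g < η := by rw [dist_comm, dist_eq_norm]; exact hg
  have h2 := H h1 (Set.mem_image_of_mem V hp)
  simp only [Set.mem_setOf_eq, Real.dist_eq] at h2
  have := abs_lt.mp h2
  linarith [this.1]

/-- small thickenings have almost the same volume -/
theorem exists_thick (D : Set E2) (hD : IsCompact D) (τ : ℝ) (hτ : 0 < τ) :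
    ∃ δ > 0, volume (Metric.cthickening δ D) ≤ volume D + ENNReal.ofReal τ := by
  have ht := tendsto_measure_cthickening_of_isCompact (μ := (volume : Measure E2)) hD
  have hlt : volume D < volume D + ENNReal.ofReal τ :=
    ENNReal.lt_add_right hD.measure_lt_top.ne (by simpa using hτ)
  have hev := ht.eventually (gt_mem_nhds hlt)
  obtain ⟨δ, hδ, H⟩ := Metric.eventually_nhds_iff_ball.mp hev
  refine ⟨δ / 2, half_pos hδ, (H (δ / 2) ?_).le⟩
  rw [Metric.mem_ball, Real.dist_eq, sub_zero, abs_of_pos (half_pos hδ)]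
  linarith

end Crest.Agent.helper6
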