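import Mathlib
import Crest.Agent.Lib_helper6.Unif

set_option autoImplicit false

open MeasureTheory Topology Filter

namespace Crest.Agent.helper6

theorem global_cov (D : Set E2) (hD : IsCompact D) (V : E2 → E2) (hVc : ContinuousOn V D)
    (L h ρ Λ σ τ : ℝ) (hρ : 0 < ρ) (hΛ : 0 ≤ Λ) (hτ : 0 ≤ τ)
    (hvol : volume (Metric.cthickening (2 * ρ) D) ≤ volume D + ENNReal.ofReal τ)
    (hcell : ∀ Q : ℤ × ℤ, (D ∩ gcell ρ Q).Nonempty → ∃ j : ℝ, j ≤ 2 ∧
      (∀ q ∈ D ∩ gcell ρ Q, j ≤ Jw h (V q) + σ) ∧ Cov (D ∩ gcell ρ Q) V L h (Λ * ρ ^ 2 * j)) :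
    Cov D V L h (Λ * ((∫ p in D, Jw h (V p)) + σ * (volume D).toReal + 2 * τ)) := by
  classical
  -- the finite set of cells
  let Qset : Set (ℤ × ℤ) := {Q | (D ∩ gcell ρ Q).Nonempty}
  obtain ⟨R, hR⟩ := hD.isBounded.exists_norm_le
  have hfin : Qset.Finite := by
    apply (finite_int_pairs (R / ρ + 1)).subset
    rintro Q ⟨p, hp, a1, a2, a3, a4⟩
    have n0 := (abs_coord0_le p).trans (hR p hp)
    have n1 := (abs_coord1_le p).trans (hR p hp)
    rw [abs_le] at n0 n1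
    have eR : R = ρ * (R / ρ) := by field_simp
    constructor
    · rw [abs_le]; constructor
      · have : ρ * (-(R / ρ + 1)) < ρ * (Q.1 : ℝ) := by nlinarith
        exact (lt_of_mul_lt_mul_left this hρ.le).le
      · have : ρ * (Q.1 : ℝ) ≤ ρ * (R / ρ + 1) := by nlinarith
        exact le_of_mul_le_mul_left this hρ
    · rw [abs_le]; constructor
      · have : ρ * (-(R / ρ + 1)) < ρ * (Q.2 : ℝ) := by nlinarith
        exact (lt_of_mul_lt_mul_left this hρ.le).le
      · have : ρ * (Q.2 : ℝ) ≤ ρ * (R / ρ + 1) := by nlinarith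
        exact le_of_mul_le_mul_left this hρ
  let 𝒬 : Finset (ℤ × ℤ) := hfin.toFinset
  have h𝒬 : ∀ Q, Q ∈ 𝒬 ↔ (D ∩ gcell ρ Q).Nonempty := fun Q => hfin.mem_toFinset
  choose! j hj2 hjσ hjcov using hcell
  have hDeq : D = ⋃ Q ∈ 𝒬, (D ∩ gcell ρ Q) := by
    ext p
    simp only [Set.mem_iUnion, Set.mem_inter_iff, exists_and_left, exists_prop]
    constructor
    · intro hp
      obtain ⟨Q, hQ⟩ := exists_gcell hρ p
      exact ⟨hp, Q, (h𝒬 Q).mpr ⟨p, hp, hQ⟩, hQ⟩
    · exact fun hp => hp.1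
  have hcov : Cov D V L h (∑ Q ∈ 𝒬, Λ * ρ ^ 2 * j Q) := by
    have := Cov.biUnion 𝒬 (P := fun Q => D ∩ gcell ρ Q) (V := V) (L := L) (h := h)
      (cost := fun Q => Λ * ρ ^ 2 * j Q) (fun Q hQ => hjcov Q ((h𝒬 Q).mp hQ))
    rwa [← hDeq] at this
  refine hcov.mono ?_
  -- the comparison function
  let ψ : E2 → ℝ := D.piecewise (fun q => Jw h (V q) + σ) (fun _ => 2)
  have hDm : MeasurableSet D := hD.measurableSet
  have hJint : IntegrableOn (fun q => Jw h (V q)) D volume :=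
    ((continuous_Jw h).comp_continuousOn hVc).integrableOn_compact hD
  have hJσint : IntegrableOn (fun q => Jw h (V q) + σ) D volume :=
    hJint.add (integrableOn_const hD.measure_lt_top.ne)
  have hψint : ∀ S : Set E2, volume S ≠ ⊤ → IntegrableOn ψ S volume := by
    intro S hS
    haveI : IsFiniteMeasure (volume.restrict S) := ⟨by simpa using hS.lt_top⟩
    apply Integrable.piecewise hDm
    · exact hJσint.mono_measure Measure.restrict_le_self
    · exact integrableOn_const (measure_ne_top _ _)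
  have hcellfin : ∀ Q, volume (gcell ρ Q) ≠ ⊤ := by
    intro Q; rw [volume_gcell hρ]; exact ENNReal.ofReal_ne_top
  let W : Set E2 := ⋃ Q ∈ 𝒬, gcell ρ Q
  have hWm : MeasurableSet W := Finset.measurableSet_biUnion _ fun Q _ => measurableSet_gcell ρ Q
  have hDW : D ⊆ W := by
    intro p hp
    obtain ⟨Q, hQ⟩ := exists_gcell hρ p
    exact Set.mem_iUnion₂.mpr ⟨Q, (h𝒬 Q).mpr ⟨p, hp, hQ⟩, hQ⟩
  have hWthick : W ⊆ Metric.cthickening (2 * ρ) D := by
    intro w hw
    obtain ⟨Q, hQ, hwQ⟩ := Set.mem_iUnion₂.mp hw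
    obtain ⟨p, hp, hpQ⟩ := (h𝒬 Q).mp hQ
    apply Metric.mem_cthickening_of_dist_le w p (2 * ρ) D hp
    rw [dist_eq_norm]; exact gcell_dist hwQ hpQ
  have hWvol : volume W ≤ volume D + ENNReal.ofReal τ := (measure_mono hWthick).trans hvol
  have hWfin : volume W ≠ ⊤ :=
    (hWvol.trans_lt (ENNReal.add_lt_top.mpr ⟨hD.measure_lt_top, ENNReal.ofReal_lt_top⟩)).ne
  have hdiff : (volume (W \ D)).toReal ≤ τ := by
    have h1 : volume (W \ D) ≤ ENNReal.ofReal τ := by
      rw [measure_sdiff hDW hDm.nullMeasurableSet hD.measure_lt_top.ne]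
      exact tsub_le_iff_left.mpr hWvol
    exact ENNReal.toReal_le_of_le_ofReal hτ h1
  -- each cell
  have hcell_le : ∀ Q ∈ 𝒬, ρ ^ 2 * j Q ≤ ∫ q in gcell ρ Q, ψ q := by
    intro Q hQ
    have hne := (h𝒬 Q).mp hQ
    have e : ρ ^ 2 * j Q = ∫ _q in gcell ρ Q, j Q := by
      rw [setIntegral_const, smul_eq_mul, Measure.real, volume_gcell hρ,
        ENNReal.toReal_ofReal (by positivity)]
    rw [e]
    apply setIntegral_mono_on (integrableOn_const (hcellfin Q)) (hψint _ (hcellfin Q))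
      (measurableSet_gcell ρ Q)
    intro q hq
    by_cases hqD : q ∈ D
    · simp only [ψ, Set.piecewise_eq_of_mem _ _ _ hqD]
      exact hjσ Q hne q ⟨hqD, hq⟩
    · simp only [ψ, Set.piecewise_eq_of_notMem _ _ _ hqD]
      exact hj2 Q hne
  have hsum : ∑ Q ∈ 𝒬, ρ ^ 2 * j Q ≤ ∫ q in W, ψ q := by
    rw [integral_biUnion_finset 𝒬 (fun Q _ => measurableSet_gcell ρ Q)
      (fun Q _ Q' _ hne => gcell_disjoint hρ hne) (fun Q _ => hψint _ (hcellfin Q))]
    exact Finset.sum_le_sum hcell_le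
  have hW : ∫ q in W, ψ q = (∫ p in D, Jw h (V p)) + σ * (volume D).toReal
      + 2 * (volume (W \ D)).toReal := by
    rw [← integral_inter_add_sdiff hDm (hψint W hWfin), Set.inter_eq_self_of_subset_right hDW]
    congr 1
    · rw [setIntegral_congr_fun hDm (g := fun q => Jw h (V q) + σ)
        (fun q hq => Set.piecewise_eq_of_mem _ _ _ hq)]
      rw [integral_add hJint (integrableOn_const hD.measure_lt_top.ne), setIntegral_const,
        smul_eq_mul, Measure.real, mul_comm σ]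
    · rw [setIntegral_congr_fun (hWm.diff hDm) (g := fun _ => (2 : ℝ))
        (fun q hq => Set.piecewise_eq_of_notMem _ _ _ hq.2)]
      rw [setIntegral_const, smul_eq_mul, Measure.real, mul_comm]
  calc ∑ Q ∈ 𝒬, Λ * ρ ^ 2 * j Q = Λ * ∑ Q ∈ 𝒬, ρ ^ 2 * j Q := by
        rw [Finset.mul_sum]; apply Finset.sum_congr rfl; intro Q _; ring
    _ ≤ Λ * ((∫ p in D, Jw h (V p)) + σ * (volume D).toReal + 2 * τ) := by
        apply mul_le_mul_of_nonneg_left _ hΛ
        rw [hW] at hsum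
        linarith

end Crest.Agent.helper6
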