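import Mathlib
import Crest.Agent.Lib_helper6.Global

set_option autoImplicit false

open MeasureTheory Topology Filter

namespace Crest.Agent.helper6

lemma exists_nu (a ε : ℝ) (ha : 0 ≤ a) (hε : 0 < ε) :
    ∃ ν > 0, (1 + ν) ^ 4 * (a + ε / 2) ≤ a + ε := by
  set κ := (ε / 2) / (a + ε / 2) with hκ
  have hden : 0 < a + ε / 2 := by positivity
  have hκ0 : 0 < κ := by positivity
  refine ⟨min 1 (κ / 15), lt_min one_pos (by positivity), ?_⟩
  set ν := min 1 (κ / 15) with hν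
  have h1 : ν ≤ 1 := min_le_left _ _
  have h2 : ν ≤ κ / 15 := min_le_right _ _
  have h0 : 0 < ν := lt_min one_pos (by positivity)
  have h4 : (1 + ν) ^ 4 ≤ 1 + κ := by
    have a2 : ν ^ 2 ≤ ν := by nlinarith
    have a3 : ν ^ 3 ≤ ν := by nlinarith
    have a4 : ν ^ 4 ≤ ν := by nlinarith
    have : (1 + ν) ^ 4 = 1 + 4 * ν + 6 * ν ^ 2 + 4 * ν ^ 3 + ν ^ 4 := by ring
    rw [this]; linarith
  calc (1 + ν) ^ 4 * (a + ε / 2) ≤ (1 + κ) * (a + ε / 2) :=
        mul_le_mul_of_nonneg_right h4 hden.le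
    _ = a + ε / 2 + κ * (a + ε / 2) := by ring
    _ = a + ε := by rw [hκ, div_mul_cancel₀ _ hden.ne']; ring

theorem main_cov
    (D : Set E2) (hD : IsCompact D) (V : E2 → E2) (U : Set E2)
    (hU : IsOpen U) (hDU : D ⊆ U) (hV : ContDiffOn ℝ 1 V U) (L h : ℝ) (hL : 0 < L)
    (htr : ∀ p ∈ D, LinearMap.trace ℝ _ (fderiv ℝ V p).toLinearMap = 0)
    (hdet : ∀ p ∈ D, -(L ^ 2)⁻¹ < LinearMap.det (fderiv ℝ V p).toLinearMap ∧
      LinearMap.det (fderiv ℝ V p).toLinearMap ≤ 0)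
    (ε : ℝ) (hε : 0 < ε) :
    Cov D V L h ((∫ p in D, Jw h (V p)) + ε) := by
  have hVc : ContinuousOn V D := hV.continuousOn.mono hDU
  obtain ⟨M₀, d, hd, hM₀, hdetb⟩ := exists_consts D U hD hU hDU V hV L hL (fun p hp => (hdet p hp).1)
  set M := |M₀| with hMdef
  have hM0 : 0 ≤ M := abs_nonneg _
  have hM : ∀ p ∈ D, ‖fderiv ℝ V p‖ ≤ M := fun p hp => (hM₀ p hp).trans (le_abs_self _)
  set I₀ := ∫ p in D, Jw h (V p) with hI₀
  have hI₀0 : 0 ≤ I₀ := integral_nonneg fun p => Jw_nonneg h (V p)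
  set W₀ := (volume D).toReal with hW₀
  have hW₀0 : 0 ≤ W₀ := ENNReal.toReal_nonneg
  set C₁ := (1 + L * M) / d with hC₁
  have hC₁0 : 0 ≤ C₁ := by positivity
  -- parameters
  set σ' := min 1 (ε / (8 * (W₀ + 1))) with hσ'
  have hσ'0 : 0 < σ' := lt_min one_pos (by positivity)
  have hσ'1 : σ' ≤ 1 := min_le_left _ _
  have hσ'W : 2 * σ' * W₀ ≤ ε / 4 := by
    have h1 : σ' ≤ ε / (8 * (W₀ + 1)) := min_le_right _ _
    have h2 : σ' * (8 * (W₀ + 1)) ≤ ε := by rwa [le_div_iff₀ (by positivity)] at h1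
    nlinarith
  obtain ⟨ν, hν0, hν⟩ := exists_nu I₀ ε hI₀0 hε
  set θ := ν / (4 * (C₁ + 1)) with hθ
  have hθ0 : 0 < θ := by positivity
  set ω := ν * θ / (4 * L) with hω
  have hω0 : 0 < ω := by positivity
  obtain ⟨δ₁, hδ₁, H₁⟩ := unif_diff D U hD hU hDU V hV ω hω0
  obtain ⟨δ₂, hδ₂, H₂⟩ := unif_JV D hD V hVc h σ' hσ'0
  obtain ⟨η, hη, H₃⟩ := unif_J D hD V hVc h σ' hσ'0
  obtain ⟨δ₃, hδ₃, H₄⟩ := exists_thick D hD (ε / 8) (by positivity)
  set K := 2 * M * (2 + C₁ * θ) + 1 with hK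
  have hK0 : 0 < K := by positivity
  set ρ := min (min δ₁ δ₂) (min δ₃ (η / K)) / 3 with hρdef
  have hmin0 : 0 < min (min δ₁ δ₂) (min δ₃ (η / K)) :=
    lt_min (lt_min hδ₁ hδ₂) (lt_min hδ₃ (by positivity))
  have hρ : 0 < ρ := by positivity
  have hρ1 : 3 * ρ ≤ δ₁ := by
    have : min (min δ₁ δ₂) (min δ₃ (η / K)) ≤ δ₁ := (min_le_left _ _).trans (min_le_left _ _)
    rw [hρdef]; linarith
  have hρ2 : 3 * ρ ≤ δ₂ := by
    have : min (min δ₁ δ₂) (min δ₃ (η / K)) ≤ δ₂ := (min_le_left _ _).trans (min_le_right _ _)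
    rw [hρdef]; linarith
  have hρ3 : 3 * ρ ≤ δ₃ := by
    have : min (min δ₁ δ₂) (min δ₃ (η / K)) ≤ δ₃ := (min_le_right _ _).trans (min_le_left _ _)
    rw [hρdef]; linarith
  have hρ4 : 3 * ρ * K ≤ η := by
    have : min (min δ₁ δ₂) (min δ₃ (η / K)) ≤ η / K := (min_le_right _ _).trans (min_le_right _ _)
    have h2 : 3 * ρ ≤ η / K := by rw [hρdef]; linarith
    rwa [le_div_iff₀ hK0] at h2
  set r := θ * ρ with hr
  have hr0 : 0 < r := by positivity
  have hglob := global_cov D hD V hVc L h ρ ((1 + ν) ^ 4) (2 * σ') (ε / 8) hρ (by positivity)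
    (by positivity)
    ((measure_mono (Metric.cthickening_mono (by linarith) D)).trans H₄) ?_
  · refine hglob.mono ?_
    refine le_trans (mul_le_mul_of_nonneg_left ?_ (by positivity)) hν
    linarith
  · rintro Q ⟨p₀, hp₀D, hp₀Q⟩
    refine ⟨Jw h (V p₀) + σ', ?_, ?_, ?_⟩
    · linarith [Jw_le_one h (V p₀)]
    · rintro q ⟨hqD, hqQ⟩
      have hn : ‖p₀ - q‖ < δ₂ := by
        have := gcell_dist hp₀Q hqQ
        linarith
      have := abs_lt.mp (H₂ p₀ hp₀D q hqD hn)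
      linarith [this.2]
    · obtain ⟨x, y, β, γ, hxy, hA, hdetA, hβ, hγ⟩ := normal_form (fderiv ℝ V p₀) (htr p₀ hp₀D)
      have hβγ0 : 0 ≤ β * γ := by
        have := (hdet p₀ hp₀D).2
        rw [hdetA] at this; linarith
      have hβγ1 : L ^ 2 * (β * γ) ≤ 1 - d := by
        have := hdetb p₀ hp₀D
        rw [hdetA, neg_neg] at this; exact this
      apply cell_cov (D ∩ gcell ρ Q) V L h hL ρ hρ Q Set.inter_subset_right p₀ hp₀Q (V p₀)
        x y β γ hxy M d hd hβγ0 hβγ1 (hβ.trans (hM p₀ hp₀D)) (hγ.trans (hM p₀ hp₀D))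
        (L * (ω * (2 * ρ))) (by positivity) ?_ r hr0 _
        (add_nonneg (Jw_nonneg h _) hσ'0.le) ?_ ν hν0.le ?_ ?_
      · rintro p ⟨hpD, hpQ⟩
        have hn : ‖p - p₀‖ ≤ 2 * ρ := gcell_dist hpQ hp₀Q
        have e : fr x y (β * cv x y (p - p₀)) (γ * cu x y (p - p₀))
            = fderiv ℝ V p₀ (p - p₀) := by
          rw [← hA, fr_cu_cv hxy]
        rw [e]
        apply mul_le_mul_of_nonneg_left _ hL.le
        exact (H₁ p₀ hp₀D p (by linarith)).trans (mul_le_mul_of_nonneg_left hn hω0.le)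
      · intro g hg
        apply H₃ p₀ hp₀D g
        refine lt_of_le_of_lt hg ?_
        have e : 2 * M * (2 * ρ + C₁ * r) = ρ * (K - 1) := by rw [hK, hr]; ring
        rw [e]
        nlinarith
      · have e : 2 * (L * (ω * (2 * ρ))) = ν * r := by
          rw [hω, hr]; field_simp; ring
        exact e.le
      · have e : 4 * (C₁ + 1) * r = ν * ρ := by
          rw [hr, hθ]; field_simp
        exact e.le

end Crest.Agent.helper6
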